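import Mathlib

/-!
# P201: leading coefficients of zero divisors in group algebras
-/

namespace Vale.P201

open MonoidAlgebra

variable {K : Type*} [Field K] {G : Type*} [Group G]

/-- coefficient of a product at `g * t` -/
theorem coeff_zero_of_mul {a b : MonoidAlgebra K G} (hab : a * b = 0) (x : G) :
    ∑ h ∈ a.coeff.support, a.coeff h * b.coeff (h⁻¹ * x) = 0 := by
  have h := coeff_mul_apply_left a b x
  rw [hab] at h
  simpa [Finsupp.sum] using h.symm

/-- a nonzero element has a coefficient of maximal valuation, and it is nonzero -/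
theorem exists_max {Γ : Type*} [LinearOrderedCommGroupWithZero Γ] (v : Valuation K Γ)
    {b : MonoidAlgebra K G} (hb : b ≠ 0) :
    ∃ t, (∀ x, v (b.coeff x) ≤ v (b.coeff t)) ∧ v (b.coeff t) ≠ 0 := by
  have hne : b.coeff.support.Nonempty := by
    rw [Finset.nonempty_iff_ne_empty]
    intro h
    apply hb
    have h' : b.coeff = 0 := Finsupp.support_eq_empty.mp h
    ext x
    simp [h']
  obtain ⟨t, ht, hmax⟩ := Finset.exists_max_image b.coeff.support (fun x => v (b.coeff x)) hne
  have ht0 : b.coeff t ≠ 0 := Finsupp.mem_support_iff.mp ht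
  refine ⟨t, fun x => ?_, (Valuation.ne_zero_iff v).mpr ht0⟩
  by_cases hx : x ∈ b.coeff.support
  · exact hmax x hx
  · rw [Finsupp.notMem_support_iff.mp hx, map_zero]
    exact zero_le

/-- no product of two maximal positions is unique -/
theorem not_unique {Γ : Type*} [LinearOrderedCommGroupWithZero Γ] (v : Valuation K Γ)
    {a b : MonoidAlgebra K G} (hab : a * b = 0) {p q : G}
    (hp : ∀ x, v (a.coeff x) ≤ v (a.coeff p)) (hp0 : v (a.coeff p) ≠ 0)
    (hq : ∀ x, v (b.coeff x) ≤ v (b.coeff q)) (hq0 : v (b.coeff q) ≠ 0) :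
    ∃ g, g ≠ p ∧ v (a.coeff g) = v (a.coeff p) ∧ v (b.coeff (g⁻¹ * (p * q))) = v (b.coeff q) := by
  classical
  by_contra hcon
  push Not at hcon
  have hsum := coeff_zero_of_mul hab (p * q)
  have hps : p ∈ a.coeff.support := by
    rw [Finsupp.mem_support_iff]
    intro h
    rw [h, map_zero] at hp0
    exact hp0 rfl
  rw [← Finset.add_sum_erase _ _ hps] at hsum
  have h1 : a.coeff p * b.coeff (p⁻¹ * (p * q)) = - ∑ h ∈ a.coeff.support.erase p,
      a.coeff h * b.coeff (h⁻¹ * (p * q)) := eq_neg_of_add_eq_zero_left hsum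
  have h2 : v (a.coeff p * b.coeff (p⁻¹ * (p * q))) = v (a.coeff p) * v (b.coeff q) := by
    rw [map_mul, inv_mul_cancel_left]
  have hne : v (a.coeff p) * v (b.coeff q) ≠ 0 := mul_ne_zero hp0 hq0
  have h3 : v (- ∑ h ∈ a.coeff.support.erase p, a.coeff h * b.coeff (h⁻¹ * (p * q)))
      < v (a.coeff p) * v (b.coeff q) := by
    rw [Valuation.map_neg]
    apply Valuation.map_sum_lt v hne
    intro g hg
    have hgp : g ≠ p := Finset.ne_of_mem_erase hg
    rw [map_mul]
    rcases (hp g).lt_or_eq with hlt | heq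
    · refine lt_of_le_of_lt (mul_le_mul_right (hq (g⁻¹ * (p * q))) _) ?_
      exact (mul_lt_mul_iff_left₀ (zero_lt_iff.mpr hq0)).mpr hlt
    · have hlt := (hq (g⁻¹ * (p * q))).lt_of_ne (hcon g hgp heq)
      rw [heq]
      exact (mul_lt_mul_iff_right₀ (zero_lt_iff.mpr hp0)).mpr hlt
  rw [← h1, h2] at h3
  exact lt_irrefl _ h3

/-- a nonempty set closed under left multiplication by an element of infinite order is infinite -/
theorem infinite_of_closed {u : G} (hu : ∀ n : ℕ, n ≠ 0 → u ^ n ≠ 1) {T : Set G} {t : G}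
    (ht : t ∈ T) (hT : ∀ x ∈ T, u * x ∈ T) : T.Infinite := by
  have hmem : ∀ n : ℕ, u ^ n * t ∈ T := by
    intro n
    induction n with
    | zero => simpa using ht
    | succ n ih =>
      have := hT _ ih
      rwa [← mul_assoc, ← pow_succ'] at this
  refine Set.infinite_of_injective_forall_mem (f := fun n : ℕ => u ^ n * t) ?_ hmem
  intro m n hmn
  have h1 : u ^ m = u ^ n := mul_right_cancel hmn
  by_contra hne
  rcases lt_or_gt_of_ne hne with h | h
  · apply hu (n - m) (by omega)
    have h2 : u ^ m * u ^ (n - m) = u ^ m * 1 := by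
      rw [← pow_add, mul_one, Nat.add_sub_cancel' h.le, h1]
    exact mul_left_cancel h2
  · apply hu (m - n) (by omega)
    have h2 : u ^ n * u ^ (m - n) = u ^ n * 1 := by
      rw [← pow_add, mul_one, Nat.add_sub_cancel' h.le, h1]
    exact mul_left_cancel h2

/-- the leading coefficients do not lie in one translate of a subgroup with unique products -/
theorem leading_not_in_coset {Γ : Type*} [LinearOrderedCommGroupWithZero Γ] (v : Valuation K Γ)
    {a b : MonoidAlgebra K G} (hab : a * b = 0) (hb : b ≠ 0) {p : G}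
    (hp : ∀ x, v (a.coeff x) ≤ v (a.coeff p)) (hp0 : v (a.coeff p) ≠ 0)
    (H : Subgroup G) [UniqueProds H] :
    ∃ g, v (a.coeff g) = v (a.coeff p) ∧ p⁻¹ * g ∉ H := by
  classical
  by_contra hcon
  push Not at hcon
  obtain ⟨q, hq, hq0⟩ := exists_max v hb
  have hfinA : {u : H | v (a.coeff (p * u)) = v (a.coeff p)}.Finite := by
    apply Set.Finite.of_finite_image (f := fun u : H => p * (u : G))
    · apply a.coeff.support.finite_toSet.subset
      rintro _ ⟨u, hu, rfl⟩
      rw [Finset.mem_coe, Finsupp.mem_support_iff]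
      intro h0
      rw [Set.mem_ofPred_eq, h0, map_zero] at hu
      exact hp0 hu.symm
    · intro u _ w _ h
      exact Subtype.ext (mul_left_cancel h)
  have hfinB : {w : H | v (b.coeff (w * q)) = v (b.coeff q)}.Finite := by
    apply Set.Finite.of_finite_image (f := fun w : H => (w : G) * q)
    · apply b.coeff.support.finite_toSet.subset
      rintro _ ⟨u, hu, rfl⟩
      rw [Finset.mem_coe, Finsupp.mem_support_iff]
      intro h0
      rw [Set.mem_ofPred_eq, h0, map_zero] at hu
      exact hq0 hu.symm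
    · intro u _ w _ h
      exact Subtype.ext (mul_right_cancel h)
  have hA : hfinA.toFinset.Nonempty := ⟨1, by simp⟩
  have hB : hfinB.toFinset.Nonempty := ⟨1, by simp⟩
  obtain ⟨u, hu, w, hw, huw⟩ := UniqueProds.uniqueMul_of_nonempty hA hB
  rw [Set.Finite.mem_toFinset, Set.mem_ofPred_eq] at hu hw
  obtain ⟨g, hgp, hg1, hg2⟩ := not_unique v hab (p := p * u) (q := w * q)
    (fun x => by rw [hu]; exact hp x) (by rw [hu]; exact hp0)
    (fun x => by rw [hw]; exact hq x) (by rw [hw]; exact hq0)
  have hgH : p⁻¹ * g ∈ H := hcon g (by rw [hg1, hu])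
  have hg' : g = p * (⟨p⁻¹ * g, hgH⟩ : H) := by simp
  set u' : H := ⟨p⁻¹ * g, hgH⟩ with hu'
  have hw' : g⁻¹ * (p * u * (w * q)) = ((u'⁻¹ * u * w : H) : G) * q := by
    rw [hg']
    push_cast
    group
  have h1 : u' ∈ hfinA.toFinset := by
    rw [Set.Finite.mem_toFinset, Set.mem_ofPred_eq, ← hg', hg1, hu]
  have h2 : u'⁻¹ * u * w ∈ hfinB.toFinset := by
    rw [Set.Finite.mem_toFinset, Set.mem_ofPred_eq, ← hw', hg2, hw]
  have h3 := huw h1 h2 (by group)
  apply hgp
  rw [hg', h3.1]

/-- at least three leading coefficients, if the group is torsion-free -/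
theorem three_leading {Γ : Type*} [LinearOrderedCommGroupWithZero Γ] (v : Valuation K Γ)
    (htf : ∀ u : G, u ≠ 1 → ∀ n : ℕ, n ≠ 0 → u ^ n ≠ 1)
    {a b : MonoidAlgebra K G} (hab : a * b = 0) (hb : b ≠ 0) {p : G}
    (hp : ∀ x, v (a.coeff x) ≤ v (a.coeff p)) (hp0 : v (a.coeff p) ≠ 0) :
    ∃ g h, g ≠ p ∧ h ≠ p ∧ g ≠ h ∧ v (a.coeff g) = v (a.coeff p) ∧
      v (a.coeff h) = v (a.coeff p) := by
  classical
  by_contra hcon
  push Not at hcon
  obtain ⟨q, hq, hq0⟩ := exists_max v hb
  obtain ⟨g, hgp, hg, -⟩ := not_unique v hab hp hp0 hq hq0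
  have hfin : {x | v (b.coeff x) = v (b.coeff q)}.Finite := by
    apply b.coeff.support.finite_toSet.subset
    intro x hx
    rw [Finset.mem_coe, Finsupp.mem_support_iff]
    intro h0
    rw [Set.mem_ofPred_eq, h0, map_zero] at hx
    exact hq0 hx.symm
  refine infinite_of_closed (u := g⁻¹ * p) (htf _ ?_) (T := {x | v (b.coeff x) = v (b.coeff q)})
    (t := q) rfl ?_ hfin
  · intro h
    exact hgp (by rw [← mul_one g, ← h]; group)
  · intro x hx
    rw [Set.mem_ofPred_eq] at hx
    obtain ⟨g', hg'p, hg', hg2⟩ := not_unique v hab (q := x) hp hp0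
      (fun y => by rw [hx]; exact hq y) (by rw [hx]; exact hq0)
    have : g = g' := by
      by_contra hne
      exact hcon g g' hgp hg'p hne hg hg'
    rw [Set.mem_ofPred_eq, mul_assoc, this, hg2, hx]

open Classical in
/-- strict polygon inequality at every complex place -/
theorem strict_polygon_aux (sigma : K →+* ℂ)
    (htf : ∀ u : G, u ≠ 1 → ∀ n : ℕ, n ≠ 0 → u ^ n ≠ 1)
    {a b : MonoidAlgebra K G} (hab : a * b = 0) (ha : a ≠ 0) (hb : b ≠ 0) (g : G) :
    ‖sigma (a.coeff g)‖ < ∑ h ∈ a.coeff.support.erase g, ‖sigma (a.coeff h)‖ := by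
  by_contra hcon
  push Not at hcon
  have hne : b.coeff.support.Nonempty := by
    rw [Finset.nonempty_iff_ne_empty]
    intro h
    apply hb
    have h' : b.coeff = 0 := Finsupp.support_eq_empty.mp h
    ext x
    simp [h']
  obtain ⟨t, ht, hmax⟩ := Finset.exists_max_image b.coeff.support
    (fun x => ‖sigma (b.coeff x)‖) hne
  have ht0 : 0 < ‖sigma (b.coeff t)‖ := by
    rw [norm_pos_iff, map_ne_zero]
    exact Finsupp.mem_support_iff.mp ht
  have hle : ∀ x, ‖sigma (b.coeff x)‖ ≤ ‖sigma (b.coeff t)‖ := by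
    intro x
    by_cases hx : x ∈ b.coeff.support
    · exact hmax x hx
    · rw [Finsupp.notMem_support_iff.mp hx, map_zero, norm_zero]
      exact norm_nonneg _
  -- the key equality
  have hkey : ∀ x, ‖sigma (b.coeff x)‖ = ‖sigma (b.coeff t)‖ → ∀ h ∈ a.coeff.support.erase g,
      ‖sigma (b.coeff (h⁻¹ * g * x))‖ = ‖sigma (b.coeff t)‖ := by
    intro x hx
    have hsum := coeff_zero_of_mul hab (g * x)
    have h1 : a.coeff g * b.coeff x = - ∑ h ∈ a.coeff.support.erase g,
        a.coeff h * b.coeff (h⁻¹ * g * x) := by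
      by_cases hgs : g ∈ a.coeff.support
      · rw [← Finset.add_sum_erase _ _ hgs, inv_mul_cancel_left] at hsum
        rw [eq_neg_of_add_eq_zero_left hsum]
        congr 1
        apply Finset.sum_congr rfl
        intro h _
        rw [mul_assoc]
      · rw [Finset.erase_eq_of_notMem hgs, Finsupp.notMem_support_iff.mp hgs, zero_mul]
        have : ∑ h ∈ a.coeff.support, a.coeff h * b.coeff (h⁻¹ * g * x) = 0 := by
          rw [← hsum]
          apply Finset.sum_congr rfl
          intro h _
          rw [mul_assoc]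
        rw [this, neg_zero]
    have h2 : ‖sigma (a.coeff g)‖ * ‖sigma (b.coeff t)‖ ≤ ∑ h ∈ a.coeff.support.erase g,
        ‖sigma (a.coeff h)‖ * ‖sigma (b.coeff (h⁻¹ * g * x))‖ := by
      have h3 := congrArg (fun z => ‖sigma z‖) h1
      simp only [map_mul, norm_mul, map_neg, norm_neg, map_sum, hx] at h3
      rw [h3]
      refine (norm_sum_le _ _).trans (le_of_eq ?_)
      apply Finset.sum_congr rfl
      intro h _
      rw [norm_mul]
    have h4 : ∑ h ∈ a.coeff.support.erase g, ‖sigma (a.coeff h)‖ * ‖sigma (b.coeff t)‖ ≤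
        ∑ h ∈ a.coeff.support.erase g,
          ‖sigma (a.coeff h)‖ * ‖sigma (b.coeff (h⁻¹ * g * x))‖ := by
      rw [← Finset.sum_mul]
      exact (mul_le_mul_of_nonneg_right hcon ht0.le).trans h2
    intro h hh
    by_contra hne'
    have hlt := lt_of_le_of_ne (hle (h⁻¹ * g * x)) hne'
    have hpos : 0 < ‖sigma (a.coeff h)‖ := by
      rw [norm_pos_iff, map_ne_zero]
      exact Finsupp.mem_support_iff.mp (Finset.mem_of_mem_erase hh)
    refine absurd h4 (not_le.mpr (Finset.sum_lt_sum (fun i _ => ?_) ⟨h, hh, ?_⟩))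
    · exact mul_le_mul_of_nonneg_left (hle _) (norm_nonneg _)
    · exact mul_lt_mul_of_pos_left hlt hpos
  by_cases hE : (a.coeff.support.erase g).Nonempty
  · obtain ⟨h, hh⟩ := hE
    have hhg : h ≠ g := Finset.ne_of_mem_erase hh
    have hfin : {x | ‖sigma (b.coeff x)‖ = ‖sigma (b.coeff t)‖}.Finite := by
      apply b.coeff.support.finite_toSet.subset
      intro x hx
      rw [Finset.mem_coe, Finsupp.mem_support_iff]
      intro h0
      rw [Set.mem_ofPred_eq, h0, map_zero, norm_zero] at hx
      exact ht0.ne hx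
    refine infinite_of_closed (u := h⁻¹ * g) (htf _ ?_)
      (T := {x | ‖sigma (b.coeff x)‖ = ‖sigma (b.coeff t)‖}) (t := t) rfl ?_ hfin
    · intro h1
      exact hhg (by rw [← mul_one h, ← h1]; group)
    · intro x hx
      exact hkey x hx h hh
  · rw [Finset.not_nonempty_iff_eq_empty] at hE
    -- the support is contained in the singleton of g
    have hag : a.coeff g ≠ 0 := by
      intro h0
      apply ha
      ext x
      by_cases hx : x = g
      · rw [hx, h0]; simp
      · by_contra hx0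
        have : x ∈ a.coeff.support.erase g :=
          Finset.mem_erase.mpr ⟨hx, Finsupp.mem_support_iff.mpr (by simpa using hx0)⟩
        rw [hE] at this
        exact absurd this (Finset.notMem_empty x)
    have hsum := coeff_zero_of_mul hab (g * t)
    rw [← Finset.add_sum_erase _ _ (Finsupp.mem_support_iff.mpr hag), hE, Finset.sum_empty,
      add_zero, inv_mul_cancel_left] at hsum
    rcases mul_eq_zero.mp hsum with h | h
    · exact hag h
    · rw [h, map_zero, norm_zero] at ht0
      exact lt_irrefl _ ht0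

/-- strict polygon inequality at every complex place -/
theorem strict_polygon (sigma : K →+* ℂ)
    (htf : ∀ u : G, u ≠ 1 → ∀ n : ℕ, n ≠ 0 → u ^ n ≠ 1)
    {a b : MonoidAlgebra K G} (hab : a * b = 0) (ha : a ≠ 0) (hb : b ≠ 0) (g : G) :
    2 * ‖sigma (a.coeff g)‖ < ∑ h ∈ a.coeff.support, ‖sigma (a.coeff h)‖ := by
  classical
  have h := strict_polygon_aux sigma htf hab ha hb g
  by_cases hg : g ∈ a.coeff.support
  · rw [← Finset.add_sum_erase _ _ hg]
    have h' : ‖sigma (a.coeff g)‖ < ∑ h ∈ a.coeff.support.erase g, ‖sigma (a.coeff h)‖ := by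
      convert h
    linarith
  · have h' : ‖sigma (a.coeff g)‖ < ∑ h ∈ a.coeff.support, ‖sigma (a.coeff h)‖ := by
      rw [← Finset.erase_eq_of_notMem hg]
      convert h
    rw [Finsupp.notMem_support_iff.mp hg, map_zero, norm_zero] at h' ⊢
    linarith

/-- a zero divisor with at most three terms: all coefficients have the same valuation -/
theorem val_eq_of_card {Γ : Type*} [LinearOrderedCommGroupWithZero Γ] (v : Valuation K Γ)
    (htf : ∀ u : G, u ≠ 1 → ∀ n : ℕ, n ≠ 0 → u ^ n ≠ 1)
    {a b : MonoidAlgebra K G} (hab : a * b = 0) (ha : a ≠ 0) (hb : b ≠ 0)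
    (hcard : a.coeff.support.card ≤ 3) {x y : G} (hx : x ∈ a.coeff.support)
    (hy : y ∈ a.coeff.support) : v (a.coeff x) = v (a.coeff y) := by
  classical
  obtain ⟨p, hp, hp0⟩ := exists_max v ha
  obtain ⟨g, h, hgp, hhp, hgh, hg, hh⟩ := three_leading v htf hab hb hp hp0
  have hmem : ∀ z, v (a.coeff z) = v (a.coeff p) → z ∈ a.coeff.support := by
    intro z hz
    rw [Finsupp.mem_support_iff]
    intro h0
    rw [h0, map_zero] at hz
    exact hp0 hz.symm
  have hsub : ({p, g, h} : Finset G) ⊆ a.coeff.support := by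
    intro z hz
    simp only [Finset.mem_insert, Finset.mem_singleton] at hz
    rcases hz with rfl | rfl | rfl
    · exact hmem _ rfl
    · exact hmem _ hg
    · exact hmem _ hh
  have hc3 : ({p, g, h} : Finset G).card = 3 := by
    rw [Finset.card_insert_of_notMem, Finset.card_insert_of_notMem, Finset.card_singleton]
    · simpa using hgh
    · simp [hgp.symm, hhp.symm]
  have heq : ({p, g, h} : Finset G) = a.coeff.support :=
    Finset.eq_of_subset_of_card_le hsub (by rw [hc3]; exact hcard)
  have hall : ∀ z ∈ a.coeff.support, v (a.coeff z) = v (a.coeff p) := by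
    intro z hz
    rw [← heq] at hz
    simp only [Finset.mem_insert, Finset.mem_singleton] at hz
    rcases hz with rfl | rfl | rfl
    · rfl
    · exact hg
    · exact hh
  rw [hall x hx, hall y hy]

/-- three-term zero divisors: ratios of coefficients are integral over the integers -/
theorem ratio_integral (htf : ∀ u : G, u ≠ 1 → ∀ n : ℕ, n ≠ 0 → u ^ n ≠ 1)
    {a b : MonoidAlgebra K G} (hab : a * b = 0) (ha : a ≠ 0) (hb : b ≠ 0)
    (hcard : a.coeff.support.card ≤ 3) {x y : G} (hx : x ∈ a.coeff.support)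
    (hy : y ∈ a.coeff.support) : IsIntegral ℤ (a.coeff x / a.coeff y) := by
  have hy0 : a.coeff y ≠ 0 := Finsupp.mem_support_iff.mp hy
  have hmem : a.coeff x / a.coeff y ∈
      (⨅ V : {V : ValuationSubring K // (∅ : Set K) ⊆ V.toSubring}, V.1.toSubring) := by
    rw [Subring.mem_iInf]
    intro V
    have h1 := val_eq_of_card V.1.valuation htf hab ha hb hcard hx hy
    have h2 : V.1.valuation (a.coeff x / a.coeff y) ≤ 1 := by
      rw [map_div₀, h1, div_self]
      exact (Valuation.ne_zero_iff _).mpr hy0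
    exact (ValuationSubring.valuation_le_one_iff _ _).mp h2
  rw [iInf_valuationSubring_superset] at hmem
  have h3 : IsIntegral (Subring.closure (∅ : Set K)) (a.coeff x / a.coeff y) := hmem
  have hint : ∀ z : Subring.closure (∅ : Set K), IsIntegral ℤ (z : K) := by
    rintro ⟨z, hz⟩
    rw [Subring.closure_empty, Subring.mem_bot] at hz
    obtain ⟨n, rfl⟩ := hz
    exact isIntegral_algebraMap (R := ℤ) (x := n)
  haveI : Algebra.IsIntegral ℤ (Subring.closure (∅ : Set K)) := ⟨fun z => by
    have := hint z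
    exact (isIntegral_algHom_iff (Subring.closure (∅ : Set K)).subtype.toIntAlgHom
      Subtype.val_injective).mp this⟩
  exact isIntegral_trans (R := ℤ) (A := Subring.closure (∅ : Set K)) _ h3

/-- three-term zero divisors over the rationals have coefficients equal up to sign -/
theorem rat_eq_or_neg (htf : ∀ u : G, u ≠ 1 → ∀ n : ℕ, n ≠ 0 → u ^ n ≠ 1)
    {a b : MonoidAlgebra ℚ G} (hab : a * b = 0) (ha : a ≠ 0) (hb : b ≠ 0)
    (hcard : a.coeff.support.card ≤ 3) {x y : G} (hx : x ∈ a.coeff.support)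
    (hy : y ∈ a.coeff.support) : a.coeff x = a.coeff y ∨ a.coeff x = - a.coeff y := by
  have hx0 : a.coeff x ≠ 0 := Finsupp.mem_support_iff.mp hx
  have hy0 : a.coeff y ≠ 0 := Finsupp.mem_support_iff.mp hy
  obtain ⟨m, hm⟩ := (IsIntegrallyClosed.isIntegral_iff (R := ℤ) (K := ℚ)).mp
    (ratio_integral htf hab ha hb hcard hx hy)
  obtain ⟨n, hn⟩ := (IsIntegrallyClosed.isIntegral_iff (R := ℤ) (K := ℚ)).mp
    (ratio_integral htf hab ha hb hcard hy hx)
  simp only [algebraMap_int_eq, eq_intCast] at hm hn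
  have hmn : m * n = 1 := by
    have : (m : ℚ) * n = 1 := by
      rw [hm, hn]
      field_simp
    exact_mod_cast this
  rcases Int.eq_one_or_neg_one_of_mul_eq_one hmn with h | h
  · left
    rw [h, eq_div_iff hy0] at hm
    simpa using hm.symm
  · right
    rw [h, eq_div_iff hy0] at hm
    simpa using hm.symm

/-- integral elements: modulo every prime at least three coefficients survive (or none) -/
theorem int_three {p : ℕ} (hpr : p.Prime) (htf : ∀ u : G, u ≠ 1 → ∀ n : ℕ, n ≠ 0 → u ^ n ≠ 1)
    (c : G → ℤ) {a b : MonoidAlgebra ℚ G} (hc : ∀ x, a.coeff x = c x)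
    (hab : a * b = 0) (hb : b ≠ 0) {x : G} (hx : ¬ (p : ℤ) ∣ c x) :
    ∃ y z, y ≠ x ∧ z ≠ x ∧ y ≠ z ∧ ¬ (p : ℤ) ∣ c y ∧ ¬ (p : ℤ) ∣ c z := by
  haveI : Fact p.Prime := ⟨hpr⟩
  have hv : ∀ y, (Rat.padicValuation p) (a.coeff y) = Int.padicValuation p (c y) := by
    intro y
    rw [hc y, Rat.padicValuation_cast]
  have hx1 : Int.padicValuation p (c x) = 1 := Int.padicValuation_eq_one_iff.mpr hx
  obtain ⟨y, z, hy, hz, hyz, h1, h2⟩ := three_leading (Rat.padicValuation p) htf hab hb
    (p := x) (fun y => by rw [hv, hv, hx1]; exact Int.padicValuation_le_one p _)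
    (by rw [hv, hx1]; exact one_ne_zero)
  refine ⟨y, z, hy, hz, hyz, ?_, ?_⟩
  · rw [hv, hv, hx1] at h1
    exact Int.padicValuation_eq_one_iff.mp h1
  · rw [hv, hv, hx1] at h2
    exact Int.padicValuation_eq_one_iff.mp h2

end Vale.P201
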