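import Vale.Agent.P201.Core

/-!
# P201: passage to the opposite group
-/

namespace Vale.P201

open MonoidAlgebra MulOpposite

variable {K : Type*} [Field K] {G : Type*} [Group G]

/-- the same coefficients on the opposite group -/
noncomputable def opp (a : MonoidAlgebra K G) : MonoidAlgebra K Gᵐᵒᵖ :=
  ofCoeff (Finsupp.equivMapDomain MulOpposite.opEquiv a.coeff)

theorem opp_coeff (a : MonoidAlgebra K G) (x : Gᵐᵒᵖ) : (opp a).coeff x = a.coeff (unop x) := rfl

theorem opp_support (a : MonoidAlgebra K G) :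
    (opp a).coeff.support = a.coeff.support.map MulOpposite.opEquiv.toEmbedding := rfl

theorem opp_mem {a : MonoidAlgebra K G} {x : G} (hx : x ∈ a.coeff.support) :
    op x ∈ (opp a).coeff.support := by
  have h : a.coeff x ≠ 0 := Finsupp.mem_support_iff.mp hx
  rw [Finsupp.mem_support_iff, opp_coeff]
  exact h

theorem opp_ne_zero {a : MonoidAlgebra K G} (ha : a ≠ 0) : opp a ≠ 0 := by
  intro h
  apply ha
  ext x
  have := opp_coeff a (op x)
  rw [h] at this
  simpa using this.symm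

theorem opp_mul {a b : MonoidAlgebra K G} (h : b * a = 0) : opp a * opp b = 0 := by
  ext x
  rw [coeff_mul_apply_left, Finsupp.sum, opp_support, Finset.sum_map]
  have h1 := coeff_mul_apply_right b a (unop x)
  rw [h, Finsupp.sum] at h1
  have h2 : ∑ y ∈ a.coeff.support, (opp a).coeff (MulOpposite.opEquiv.toEmbedding y) *
      (opp b).coeff ((MulOpposite.opEquiv.toEmbedding y)⁻¹ * x) =
      ∑ y ∈ a.coeff.support, b.coeff (unop x * y⁻¹) * a.coeff y := by
    apply Finset.sum_congr rfl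
    intro y _
    rw [opp_coeff, opp_coeff, mul_comm]
    rfl
  rw [h2, ← h1]
  simp

theorem opp_tf (htf : ∀ u : G, IsOfFinOrder u → u = 1) :
    ∀ u : Gᵐᵒᵖ, u ≠ 1 → ∀ n : ℕ, n ≠ 0 → u ^ n ≠ 1 := by
  intro u hu n hn h
  apply hu
  apply unop_injective
  apply htf
  rw [isOfFinOrder_iff_pow_eq_one]
  exact ⟨n, Nat.pos_of_ne_zero hn, by rw [← unop_pow, h]; rfl⟩

theorem tf_pow (htf : ∀ u : G, IsOfFinOrder u → u = 1) :
    ∀ u : G, u ≠ 1 → ∀ n : ℕ, n ≠ 0 → u ^ n ≠ 1 := by
  intro u hu n hn h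
  apply hu
  apply htf
  rw [isOfFinOrder_iff_pow_eq_one]
  exact ⟨n, Nat.pos_of_ne_zero hn, h⟩

end Vale.P201
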