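import Vale.Agent.P201.Residue
import Vale.Agent.P201.Opp

/-!
# P201: zero divisors with the least number of terms
-/

namespace Vale.P201

open MonoidAlgebra IsLocalRing

theorem integral_of_val_eq {K : Type*} [Field K] {x y : K} (hy : y ≠ 0)
    (h : ∀ V : ValuationSubring K, V.valuation x = V.valuation y) : IsIntegral ℤ (x / y) := by
  have hmem : x / y ∈
      (⨅ V : {V : ValuationSubring K // (∅ : Set K) ⊆ V.toSubring}, V.1.toSubring) := by
    rw [Subring.mem_iInf]
    intro V
    have h2 : V.1.valuation (x / y) ≤ 1 := by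
      rw [map_div₀, h V.1, div_self]
      exact (Valuation.ne_zero_iff _).mpr hy
    exact (ValuationSubring.valuation_le_one_iff _ _).mp h2
  rw [iInf_valuationSubring_superset] at hmem
  have h3 : IsIntegral (Subring.closure (∅ : Set K)) (x / y) := hmem
  have hint : ∀ z : Subring.closure (∅ : Set K), IsIntegral ℤ (z : K) := by
    rintro ⟨z, hz⟩
    rw [Subring.closure_empty, Subring.mem_bot] at hz
    obtain ⟨n, rfl⟩ := hz
    exact isIntegral_algebraMap (R := ℤ) (x := n)
  have : Algebra.IsIntegral ℤ (Subring.closure (∅ : Set K)) := ⟨fun z => by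
    have := hint z
    exact (isIntegral_algHom_iff (Subring.closure (∅ : Set K)).subtype.toIntAlgHom
      Subtype.val_injective).mp this⟩
  exact isIntegral_trans (R := ℤ) (A := Subring.closure (∅ : Set K)) _ h3

/-- zero divisors with the least number of terms have integral ratios of coefficients -/
theorem ratio_integral_min.{u, v} {K : Type u} [Field K] {G : Type v} [Group G]
    {a b : MonoidAlgebra K G} (hab : a * b = 0) (ha : a ≠ 0) (hb : b ≠ 0)
    (hmin : ∀ (k : Type u) [Field k] (A B : MonoidAlgebra k G), A ≠ 0 → B ≠ 0 → A * B = 0 →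
      a.coeff.support.card ≤ A.coeff.support.card) {x y : G} (hx : x ∈ a.coeff.support)
    (hy : y ∈ a.coeff.support) : IsIntegral ℤ (a.coeff x / a.coeff y) := by
  classical
  apply integral_of_val_eq (Finsupp.mem_support_iff.mp hy)
  intro V
  obtain ⟨p, hp, hp0⟩ := exists_max V.valuation ha
  obtain ⟨A, B, hA, hB, hAB, hsupp, -⟩ := leading_form V.valuation hab hb hp hp0
  have hsub : A.coeff.support ⊆ a.coeff.support := by
    intro z hz
    rw [Finsupp.mem_support_iff] at hz ⊢
    intro h0
    have h1 := (hsupp z).mp hz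
    rw [h0, map_zero] at h1
    exact hp0 h1.symm
  have heq : A.coeff.support = a.coeff.support :=
    Finset.eq_of_subset_of_card_le hsub (hmin _ A B hA hB hAB)
  have hall : ∀ z ∈ a.coeff.support, V.valuation (a.coeff z) = V.valuation (a.coeff p) := by
    intro z hz
    rw [← heq] at hz
    exact (hsupp z).mp (Finsupp.mem_support_iff.mp hz)
  rw [hall x hx, hall y hy]

theorem max_ne_zero {K : Type*} [Field K] {G : Type*} [Group G] {Γ : Type*}
    [LinearOrderedCommGroupWithZero Γ] (v : Valuation K Γ) {a : MonoidAlgebra K G} (ha : a ≠ 0)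
    {p : G} (hp : ∀ x, v (a.coeff x) ≤ v (a.coeff p)) : v (a.coeff p) ≠ 0 := by
  obtain ⟨t, -, ht⟩ := exists_max v ha
  intro h
  apply ht
  have := hp t
  rw [h] at this
  exact le_antisymm this zero_le

end Vale.P201
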