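import Vale.Agent.P201.Core

/-!
# P201: the leading coefficients and the residue field
-/

namespace Vale.P201

open MonoidAlgebra IsLocalRing

variable {K : Type*} [Field K] {G : Type*} [Group G]

/-- the leading coefficients of a zero divisor do not lie in one translate of a subgroup `H` for
which the group algebra of `H` over the residue field is a domain -/
theorem leading_residue {Γ : Type*} [LinearOrderedCommGroupWithZero Γ] (v : Valuation K Γ)
    {a b : MonoidAlgebra K G} (hab : a * b = 0) (hb : b ≠ 0) {p : G}
    (hp : ∀ x, v (a.coeff x) ≤ v (a.coeff p)) (hp0 : v (a.coeff p) ≠ 0)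
    (H : Subgroup G) (hH : NoZeroDivisors (MonoidAlgebra (ResidueField v.valuationSubring) H)) :
    ∃ g, v (a.coeff g) = v (a.coeff p) ∧ p⁻¹ * g ∉ H := by
  classical
  by_contra hcon
  push Not at hcon
  obtain ⟨q, hq, hq0⟩ := exists_max v hb
  have hap : a.coeff p ≠ 0 := (Valuation.ne_zero_iff v).mp hp0
  have hbq : b.coeff q ≠ 0 := (Valuation.ne_zero_iff v).mp hq0
  have hc : ∀ x, a.coeff x / a.coeff p ∈ v.valuationSubring := by
    intro x
    rw [Valuation.mem_valuationSubring_iff, map_div₀]
    exact div_le_one_of_le₀ (hp x) zero_le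
  have hd : ∀ x, b.coeff x / b.coeff q ∈ v.valuationSubring := by
    intro x
    rw [Valuation.mem_valuationSubring_iff, map_div₀]
    exact div_le_one_of_le₀ (hq x) zero_le
  let c : G → v.valuationSubring := fun x => ⟨a.coeff x / a.coeff p, hc x⟩
  let d : G → v.valuationSubring := fun x => ⟨b.coeff x / b.coeff q, hd x⟩
  let r := residue v.valuationSubring
  have hcs : ∀ x, r (c x) ≠ 0 → x ∈ a.coeff.support := by
    intro x hx
    rw [Finsupp.mem_support_iff]
    intro h0
    apply hx
    have : c x = 0 := Subtype.ext (by simp [c, h0])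
    rw [this, map_zero]
  have hds : ∀ x, r (d x) ≠ 0 → x ∈ b.coeff.support := by
    intro x hx
    rw [Finsupp.mem_support_iff]
    intro h0
    apply hx
    have : d x = 0 := Subtype.ext (by simp [d, h0])
    rw [this, map_zero]
  have hconv : ∀ x, ∑ g ∈ a.coeff.support, c g * d (g⁻¹ * x) = 0 := by
    intro x
    apply Subtype.ext
    push_cast
    have h0 := coeff_zero_of_mul hab x
    calc ∑ g ∈ a.coeff.support, (a.coeff g / a.coeff p) * (b.coeff (g⁻¹ * x) / b.coeff q)
        = (∑ g ∈ a.coeff.support, a.coeff g * b.coeff (g⁻¹ * x)) / (a.coeff p * b.coeff q) := by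
          rw [Finset.sum_div]
          apply Finset.sum_congr rfl
          intro g _
          rw [div_mul_div_comm]
      _ = 0 := by rw [h0, zero_div]
  have hfa : (Function.support (fun u : H => r (c (p * u)))).Finite := by
    apply Set.Finite.of_finite_image (f := fun u : H => p * (u : G))
    · apply a.coeff.support.finite_toSet.subset
      rintro _ ⟨u, hu, rfl⟩
      exact hcs _ hu
    · intro u _ w _ h
      exact Subtype.ext (mul_left_cancel h)
  have hfb : (Function.support (fun w : H => r (d (w * q)))).Finite := by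
    apply Set.Finite.of_finite_image (f := fun w : H => (w : G) * q)
    · apply b.coeff.support.finite_toSet.subset
      rintro _ ⟨u, hu, rfl⟩
      exact hds _ hu
    · intro u _ w _ h
      exact Subtype.ext (mul_right_cancel h)
  let A : MonoidAlgebra (ResidueField v.valuationSubring) H :=
    ofCoeff (Finsupp.ofSupportFinite _ hfa)
  let B : MonoidAlgebra (ResidueField v.valuationSubring) H :=
    ofCoeff (Finsupp.ofSupportFinite _ hfb)
  have hA : ∀ u : H, A.coeff u = r (c (p * u)) := fun u => rfl
  have hB : ∀ w : H, B.coeff w = r (d (w * q)) := fun w => rfl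
  -- leading coefficients lie in the translate
  have hvan : ∀ g, r (c g) ≠ 0 → p⁻¹ * g ∈ H := by
    intro g hg
    apply hcon
    by_contra hne
    apply hg
    rw [residue_eq_zero_iff, Valuation.mem_maximalIdeal_iff]
    change v (a.coeff g / a.coeff p) < 1
    rw [map_div₀]
    exact (div_lt_one₀ (zero_lt_iff.mpr hp0)).mpr (lt_of_le_of_ne (hp g) hne)
  have hinj : Function.Injective (fun u : H => p * (u : G)) :=
    fun u w h => Subtype.ext (mul_left_cancel h)
  obtain ⟨e, he⟩ : ∃ e : H ↪ G, ∀ u : H, e u = p * (u : G) := ⟨⟨_, hinj⟩, fun _ => rfl⟩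
  have hAB : A * B = 0 := by
    ext m
    rw [coeff_mul_apply_left, Finsupp.sum]
    have h1 := congrArg r (hconv (p * m * q))
    rw [map_sum, map_zero] at h1
    have h2 : ∑ g ∈ A.coeff.support.map e, r (c g * d (g⁻¹ * (p * m * q))) =
        ∑ g ∈ a.coeff.support, r (c g * d (g⁻¹ * (p * m * q))) := by
      apply Finset.sum_subset
      · intro g hg
        obtain ⟨u, hu, rfl⟩ := Finset.mem_map.mp hg
        rw [he]
        exact hcs _ (by rw [← hA]; exact Finsupp.mem_support_iff.mp hu)
      · intro g _ hg
        rw [map_mul]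
        by_cases h0 : r (c g) = 0
        · rw [h0, zero_mul]
        · exfalso
          apply hg
          refine Finset.mem_map.mpr ⟨⟨p⁻¹ * g, hvan g h0⟩, ?_, ?_⟩
          · rw [Finsupp.mem_support_iff, hA]
            simpa using h0
          · rw [he]
            simp
    rw [h1, Finset.sum_map] at h2
    have h3 : ∑ u ∈ A.coeff.support, A.coeff u * B.coeff (u⁻¹ * m) =
        ∑ u ∈ A.coeff.support, r (c (e u) * d ((e u)⁻¹ * (p * m * q))) := by
      apply Finset.sum_congr rfl
      intro u _
      rw [hA, hB, ← map_mul, he]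
      have h4 : ((u⁻¹ * m : H) : G) * q = (p * (u : G))⁻¹ * (p * m * q) := by
        push_cast
        group
      rw [h4]
    rw [h3, h2]
    simp
  rcases mul_eq_zero.mp hAB with h | h
  · have h1 := hA 1
    have h2 : c (p * ((1 : H) : G)) = 1 := Subtype.ext (by simp [c, div_self hap])
    rw [h2, h, show r 1 = 1 from map_one r] at h1
    exact zero_ne_one h1
  · have h1 := hB 1
    have h2 : d (((1 : H) : G) * q) = 1 := Subtype.ext (by simp [d, div_self hbq])
    rw [h2, h, show r 1 = 1 from map_one r] at h1
    exact zero_ne_one h1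

/-- the leading form of a zero divisor is a zero divisor over the residue field, supported exactly
on the leading positions -/
theorem leading_form {Γ : Type*} [LinearOrderedCommGroupWithZero Γ] (v : Valuation K Γ)
    {a b : MonoidAlgebra K G} (hab : a * b = 0) (hb : b ≠ 0) {p : G}
    (hp : ∀ x, v (a.coeff x) ≤ v (a.coeff p)) (hp0 : v (a.coeff p) ≠ 0) :
    ∃ A B : MonoidAlgebra (ResidueField v.valuationSubring) G, A ≠ 0 ∧ B ≠ 0 ∧ A * B = 0 ∧
      (∀ x, A.coeff x ≠ 0 ↔ v (a.coeff x) = v (a.coeff p)) ∧
      B.coeff.support ⊆ b.coeff.support := by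
  classical
  obtain ⟨q, hq, hq0⟩ := exists_max v hb
  have hap : a.coeff p ≠ 0 := (Valuation.ne_zero_iff v).mp hp0
  have hbq : b.coeff q ≠ 0 := (Valuation.ne_zero_iff v).mp hq0
  have hc : ∀ x, a.coeff x / a.coeff p ∈ v.valuationSubring := by
    intro x
    rw [Valuation.mem_valuationSubring_iff, map_div₀]
    exact div_le_one_of_le₀ (hp x) zero_le
  have hd : ∀ x, b.coeff x / b.coeff q ∈ v.valuationSubring := by
    intro x
    rw [Valuation.mem_valuationSubring_iff, map_div₀]
    exact div_le_one_of_le₀ (hq x) zero_le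
  let c : G → v.valuationSubring := fun x => ⟨a.coeff x / a.coeff p, hc x⟩
  let d : G → v.valuationSubring := fun x => ⟨b.coeff x / b.coeff q, hd x⟩
  let r := residue v.valuationSubring
  have hcs : ∀ x, r (c x) ≠ 0 → x ∈ a.coeff.support := by
    intro x hx
    rw [Finsupp.mem_support_iff]
    intro h0
    apply hx
    have : c x = 0 := Subtype.ext (by simp [c, h0])
    rw [this, map_zero]
  have hds : ∀ x, r (d x) ≠ 0 → x ∈ b.coeff.support := by
    intro x hx
    rw [Finsupp.mem_support_iff]
    intro h0
    apply hx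
    have : d x = 0 := Subtype.ext (by simp [d, h0])
    rw [this, map_zero]
  have hconv : ∀ x, ∑ g ∈ a.coeff.support, c g * d (g⁻¹ * x) = 0 := by
    intro x
    apply Subtype.ext
    push_cast
    have h0 := coeff_zero_of_mul hab x
    calc ∑ g ∈ a.coeff.support, (a.coeff g / a.coeff p) * (b.coeff (g⁻¹ * x) / b.coeff q)
        = (∑ g ∈ a.coeff.support, a.coeff g * b.coeff (g⁻¹ * x)) / (a.coeff p * b.coeff q) := by
          rw [Finset.sum_div]
          apply Finset.sum_congr rfl
          intro g _
          rw [div_mul_div_comm]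
      _ = 0 := by rw [h0, zero_div]
  have hfa : (Function.support (fun u : G => r (c u))).Finite :=
    a.coeff.support.finite_toSet.subset fun u hu => hcs _ hu
  have hfb : (Function.support (fun w : G => r (d w))).Finite :=
    b.coeff.support.finite_toSet.subset fun u hu => hds _ hu
  let A : MonoidAlgebra (ResidueField v.valuationSubring) G :=
    ofCoeff (Finsupp.ofSupportFinite _ hfa)
  let B : MonoidAlgebra (ResidueField v.valuationSubring) G :=
    ofCoeff (Finsupp.ofSupportFinite _ hfb)
  have hA : ∀ u : G, A.coeff u = r (c u) := fun u => rfl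
  have hB : ∀ w : G, B.coeff w = r (d w) := fun w => rfl
  refine ⟨A, B, ?_, ?_, ?_, ?_, ?_⟩
  · intro h
    have h1 := hA p
    have h2 : c p = 1 := Subtype.ext (by simp [c, div_self hap])
    rw [h2, h, show r 1 = 1 from map_one r] at h1
    exact zero_ne_one h1
  · intro h
    have h1 := hB q
    have h2 : d q = 1 := Subtype.ext (by simp [d, div_self hbq])
    rw [h2, h, show r 1 = 1 from map_one r] at h1
    exact zero_ne_one h1
  · ext m
    rw [coeff_mul_apply_left, Finsupp.sum]
    have h1 := congrArg r (hconv m)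
    rw [map_sum, map_zero] at h1
    have h2 : ∑ g ∈ A.coeff.support, r (c g * d (g⁻¹ * m)) =
        ∑ g ∈ a.coeff.support, r (c g * d (g⁻¹ * m)) := by
      apply Finset.sum_subset
      · intro g hg
        exact hcs _ (by rw [← hA]; exact Finsupp.mem_support_iff.mp hg)
      · intro g _ hg
        rw [map_mul, ← hA, Finsupp.notMem_support_iff.mp hg, zero_mul]
    rw [h1] at h2
    have h3 : ∑ u ∈ A.coeff.support, A.coeff u * B.coeff (u⁻¹ * m) =
        ∑ u ∈ A.coeff.support, r (c u * d (u⁻¹ * m)) := by
      apply Finset.sum_congr rfl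
      intro u _
      rw [hA, hB, ← map_mul]
    rw [h3, h2]
    simp
  · intro x
    rw [hA, Ne, residue_eq_zero_iff, Valuation.mem_maximalIdeal_iff]
    change ¬ v (a.coeff x / a.coeff p) < 1 ↔ _
    rw [map_div₀, div_lt_one₀ (zero_lt_iff.mpr hp0), not_lt]
    exact ⟨fun h => le_antisymm (hp x) h, fun h => h.ge⟩
  · intro x hx
    exact hds x (by rw [← hB]; exact Finsupp.mem_support_iff.mp hx)

end Vale.P201
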